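import Vale.Agent.Lib.P018.Strong.Lower

/-!
# P018: the upper bound, and a reduction of Q2 to a crude lower bound for special polynomials

First part: for every polynomial `f` with integer coefficients that is irreducible over the
rationals, every `k ≥ 2` and every `ε > 0`, the number of `1 ≤ n ≤ N` with `f n`
`k`-power-free is at most `(c_{f,k} + ε) N` for all large `N`.

Second part: let `2 ≤ k ≤ k'`. Suppose that for every `η > 0` there are `T` and `δ > 0` such
that every polynomial `g` of degree `d`, irreducible over the rationals, none of whose values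
is divisible by a prime `p ≤ T`, without fixed prime divisor and with predicted density
`c_{g,k} ≥ 1 - δ`, has at least `(1 - η) N` values `g n`, `1 ≤ n ≤ N`, that are
`k`-power-free, for all large `N`. Then the pair `(d, k')` is valid: the predicted asymptotic
for `k'`-power-free values holds for every irreducible polynomial of degree `d` satisfying the
local condition at exponent `k'`.
-/

namespace Vale.Agent.Results.P018.CrudeReduction

open Vale.Agent.Lib.P018 Polynomial

theorem result :
    (∀ (f : ℤ[X]) (k : ℕ) (ε : ℝ), Irreducible (f.map (Int.castRingHom ℚ)) → 2 ≤ k → 0 < ε →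
      ∀ᶠ N : ℕ in Filter.atTop, (countPowerFree f k N : ℝ) ≤ (density f k + ε) * (N : ℝ)) ∧
    (∀ d k k' : ℕ, 2 ≤ k → k ≤ k' →
      (∀ η : ℝ, 0 < η → ∃ T : ℕ, ∃ δ : ℝ, 0 < δ ∧
        ∀ g : ℤ[X], g.natDegree = d → Irreducible (g.map (Int.castRingHom ℚ)) →
          (∀ p : ℕ, p.Prime → p ≤ T → ∀ m : ℤ, ¬ ((p : ℤ) ∣ g.eval m)) →
          (∀ p : ℕ, p.Prime → rho g p < p) → 1 - δ ≤ density g k →
          ∀ᶠ N : ℕ in Filter.atTop, (1 - η) * (N : ℝ) ≤ (countPowerFree g k N : ℝ)) →
      ValidPair d k') :=
  ⟨fun f k ε hf hk hε => upper_bound f hf k hk ε hε,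
    fun d k k' hk hkk' h => validPair_crude d k k' hk hkk' h⟩

end Vale.Agent.Results.P018.CrudeReduction
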