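import Vale.Agent.Lib.P018.Closure

/-!
# P018: reduction of Q2 to polynomials without a fixed prime divisor

Let `2 ≤ k ≤ k'`. If the predicted asymptotic for `k`-power-free values holds for every
polynomial of degree `d`, irreducible over the rationals, such that no prime divides all of
its values, then the pair `(d, k')` is valid: the predicted asymptotic for `k'`-power-free
values holds for every irreducible polynomial of degree `d` satisfying the local condition at
exponent `k'`.
-/

namespace Vale.Agent.Results.P018.NoFixedDivisor

open Vale.Agent.Lib.P018 Polynomial

theorem result (d k k' : ℕ) (hk : 2 ≤ k) (hkk' : k ≤ k')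
    (h : ∀ f : ℤ[X], f.natDegree = d → Irreducible (f.map (Int.castRingHom ℚ)) →
      (∀ p : ℕ, p.Prime → rho f p < p) → HasAsymptotic f k) :
    ValidPair d k' :=
  validPair_of_noFixed d k k' hk hkk' h

end Vale.Agent.Results.P018.NoFixedDivisor
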