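import Vale.Agent.Lib.P018.Upper

/-!
# P018: unconditional upper bound for power-free values

For every polynomial `f` with integer coefficients that is irreducible over the rationals and
every `k ≥ 2`, the number of `1 ≤ n ≤ X` with `f n` `k`-power-free is at most
`(c_{f,k} + ε) X` for all large `X`, for every `ε > 0`; here `c_{f,k}` is the predicted
density. This is the upper-bound half of the predicted asymptotic, for all pairs `(d, k)`.
-/

namespace Vale.Agent.Results.P018.UpperBound

open Vale.Agent.Lib.P018 Polynomial

theorem result (f : ℤ[X]) (hf : Irreducible (f.map (Int.castRingHom ℚ))) (k : ℕ)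
    (hk : 2 ≤ k) (ε : ℝ) (hε : 0 < ε) :
    ∀ᶠ N : ℕ in Filter.atTop,
      (countPowerFree f k N : ℝ) ≤ (density f k + ε) * (N : ℝ) :=
  upper_bound f hf k hk ε hε

end Vale.Agent.Results.P018.UpperBound
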