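import Vale.Agent.Lib.P018.Closure

/-!
# P018: the set of valid pairs `(d, k)` of Q2 is upward closed in `k`

If the predicted asymptotic for `k`-power-free values holds for every irreducible polynomial
of degree `d` satisfying the local condition at exponent `k ≥ 2`, then for every `k' ≥ k` the
predicted asymptotic for `k'`-power-free values holds for every irreducible polynomial of
degree `d` satisfying the local condition at exponent `k'`.
-/

namespace Vale.Agent.Results.P018.UpwardClosed

open Vale.Agent.Lib.P018 Polynomial

theorem result (d k k' : ℕ) (hk : 2 ≤ k) (hkk' : k ≤ k') (h : ValidPair d k) :
    ValidPair d k' :=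
  validPair_mono d k k' hk hkk' h

end Vale.Agent.Results.P018.UpwardClosed
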